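import Vale.Agent.Lib.P328.Sampler.Defs
import Vale.Agent.Lib.P328.RC.CIExists

/-!
# P328 sampler: the tables agreeing with `X` off a block are the refilled tables
-/

namespace P328S

open P335 P328RC Finset

variable {ι κ : Type*} [DecidableEq ι] [DecidableEq κ]

theorem setBlock_11 (X : ι → κ → ℕ) (b : ι × ι) (b' : κ × κ) (k : ℕ) :
    setBlock X b b' k b.1 b'.1 = k := by
  simp [setBlock]

theorem setBlock_12 (X : ι → κ → ℕ) (b : ι × ι) (b' : κ × κ) (hb' : b'.1 ≠ b'.2) (k : ℕ) :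
    setBlock X b b' k b.1 b'.2 = X b.1 b'.1 + X b.1 b'.2 - k := by
  simp [setBlock, hb'.symm]

theorem setBlock_21 (X : ι → κ → ℕ) (b : ι × ι) (b' : κ × κ) (hb : b.1 ≠ b.2) (k : ℕ) :
    setBlock X b b' k b.2 b'.1 = X b.1 b'.1 + X b.2 b'.1 - k := by
  simp [setBlock, hb.symm]

theorem setBlock_22 (X : ι → κ → ℕ) (b : ι × ι) (b' : κ × κ) (hb : b.1 ≠ b.2) (hb' : b'.1 ≠ b'.2)
    (k : ℕ) : setBlock X b b' k b.2 b'.2 = X b.2 b'.2 + k - X b.1 b'.1 := by
  simp [setBlock, hb.symm, hb'.symm]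

theorem setBlock_off (X : ι → κ → ℕ) (b : ι × ι) (b' : κ × κ) (k : ℕ) (i : ι) (j : κ)
    (h : ¬((i = b.1 ∨ i = b.2) ∧ (j = b'.1 ∨ j = b'.2))) : setBlock X b b' k i j = X i j := by
  unfold setBlock
  have h1 : ¬(i = b.1 ∧ j = b'.1) := fun hc => h ⟨Or.inl hc.1, Or.inl hc.2⟩
  have h2 : ¬(i = b.1 ∧ j = b'.2) := fun hc => h ⟨Or.inl hc.1, Or.inr hc.2⟩
  have h3 : ¬(i = b.2 ∧ j = b'.1) := fun hc => h ⟨Or.inr hc.1, Or.inl hc.2⟩
  have h4 : ¬(i = b.2 ∧ j = b'.2) := fun hc => h ⟨Or.inr hc.1, Or.inr hc.2⟩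
  rw [if_neg h1, if_neg h2, if_neg h3, if_neg h4]

variable [Fintype ι] [Fintype κ]

/-- row sums are kept -/
theorem setBlock_row (X : ι → κ → ℕ) (b : ι × ι) (b' : κ × κ) (hb : b.1 ≠ b.2) (hb' : b'.1 ≠ b'.2)
    (k : ℕ) (h1 : lo X b b' ≤ k) (h2 : k ≤ hi X b b') (i : ι) :
    ∑ j, setBlock X b b' k i j = ∑ j, X i j := by
  unfold lo at h1
  unfold hi at h2
  rw [sum_split2 hb' (fun j => setBlock X b b' k i j), sum_split2 hb' (fun j => X i j)]
  have e : ∑ j ∈ (univ.erase b'.1).erase b'.2, setBlock X b b' k i j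
      = ∑ j ∈ (univ.erase b'.1).erase b'.2, X i j := by
    refine Finset.sum_congr rfl fun j hj => ?_
    have hj' := mem_rest2.mp hj
    exact setBlock_off X b b' k i j (fun hc => hc.2.elim hj'.1 hj'.2)
  rw [e]
  by_cases hi1 : i = b.1
  · subst hi1
    rw [setBlock_11, setBlock_12 X b b' hb']
    omega
  · by_cases hi2 : i = b.2
    · subst hi2
      rw [setBlock_21 X b b' hb, setBlock_22 X b b' hb hb']
      omega
    · rw [setBlock_off X b b' k i b'.1 (fun hc => hc.1.elim hi1 hi2),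
        setBlock_off X b b' k i b'.2 (fun hc => hc.1.elim hi1 hi2)]

/-- column sums are kept -/
theorem setBlock_col (X : ι → κ → ℕ) (b : ι × ι) (b' : κ × κ) (hb : b.1 ≠ b.2) (hb' : b'.1 ≠ b'.2)
    (k : ℕ) (h1 : lo X b b' ≤ k) (h2 : k ≤ hi X b b') (j : κ) :
    ∑ i, setBlock X b b' k i j = ∑ i, X i j := by
  unfold lo at h1
  unfold hi at h2
  rw [sum_split2 hb (fun i => setBlock X b b' k i j), sum_split2 hb (fun i => X i j)]
  have e : ∑ i ∈ (univ.erase b.1).erase b.2, setBlock X b b' k i j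
      = ∑ i ∈ (univ.erase b.1).erase b.2, X i j := by
    refine Finset.sum_congr rfl fun i hi => ?_
    have hi' := mem_rest2.mp hi
    exact setBlock_off X b b' k i j (fun hc => hc.1.elim hi'.1 hi'.2)
  rw [e]
  by_cases hj1 : j = b'.1
  · subst hj1
    rw [setBlock_11, setBlock_21 X b b' hb]
    omega
  · by_cases hj2 : j = b'.2
    · subst hj2
      rw [setBlock_12 X b b' hb', setBlock_22 X b b' hb hb']
      omega
    · rw [setBlock_off X b b' k b.1 j (fun hc => hc.2.elim hj1 hj2),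
        setBlock_off X b b' k b.2 j (fun hc => hc.2.elim hj1 hj2)]

variable {r : ι → ℕ} {c : κ → ℕ}

/-- the refilled table, as an element of `Tab r c` -/
def refill (X : Tab r c) (b : ι × ι) (b' : κ × κ) (hb : b.1 ≠ b.2) (hb' : b'.1 ≠ b'.2)
    (k : ℕ) (h1 : lo X.1 b b' ≤ k) (h2 : k ≤ hi X.1 b b') : Tab r c :=
  ⟨setBlock X.1 b b' k,
    fun i => (setBlock_row X.1 b b' hb hb' k h1 h2 i).trans (X.2.1 i),
    fun j => (setBlock_col X.1 b b' hb hb' k h1 h2 j).trans (X.2.2 j)⟩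

/-- two functions with equal sums that agree off two points have equal sums on the two points -/
theorem two_sum_eq' {α : Type*} [Fintype α] [DecidableEq α] (f g : α → ℕ) (p q : α)
    (hpq : p ≠ q) (h : ∀ j, j ≠ p → j ≠ q → f j = g j) (hs : ∑ j, f j = ∑ j, g j) :
    f p + f q = g p + g q := by
  rw [sum_split2 hpq f, sum_split2 hpq g] at hs
  have e2 : ∑ j ∈ ((univ : Finset α).erase p).erase q, f j
      = ∑ j ∈ ((univ : Finset α).erase p).erase q, g j := by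
    refine Finset.sum_congr rfl fun j hj => ?_
    have hj' := mem_rest2.mp hj
    exact h j hj'.1 hj'.2
  omega

/-- a table agreeing with `X` off the block is a refilled table -/
theorem eq_setBlock_of_RX (X Y : Tab r c) (b : ι × ι) (b' : κ × κ) (hb : b.1 ≠ b.2)
    (hb' : b'.1 ≠ b'.2) (h : RX b b' X Y) :
    Y.1 = setBlock X.1 b b' (Y.1 b.1 b'.1) ∧ lo X.1 b b' ≤ Y.1 b.1 b'.1 ∧
      Y.1 b.1 b'.1 ≤ hi X.1 b b' := by
  have r1 : X.1 b.1 b'.1 + X.1 b.1 b'.2 = Y.1 b.1 b'.1 + Y.1 b.1 b'.2 :=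
    two_sum_eq' (fun j => X.1 b.1 j) (fun j => Y.1 b.1 j) b'.1 b'.2 hb'
      (fun j hj1 hj2 => h b.1 j (fun hc => hc.2.elim hj1 hj2)) ((X.2.1 b.1).trans (Y.2.1 b.1).symm)
  have r2 : X.1 b.2 b'.1 + X.1 b.2 b'.2 = Y.1 b.2 b'.1 + Y.1 b.2 b'.2 :=
    two_sum_eq' (fun j => X.1 b.2 j) (fun j => Y.1 b.2 j) b'.1 b'.2 hb'
      (fun j hj1 hj2 => h b.2 j (fun hc => hc.2.elim hj1 hj2)) ((X.2.1 b.2).trans (Y.2.1 b.2).symm)
  have c1 : X.1 b.1 b'.1 + X.1 b.2 b'.1 = Y.1 b.1 b'.1 + Y.1 b.2 b'.1 :=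
    two_sum_eq' (fun i => X.1 i b'.1) (fun i => Y.1 i b'.1) b.1 b.2 hb
      (fun i hi1 hi2 => h i b'.1 (fun hc => hc.1.elim hi1 hi2)) ((X.2.2 b'.1).trans (Y.2.2 b'.1).symm)
  refine ⟨?_, ?_, ?_⟩
  · funext i j
    by_cases hi1 : i = b.1
    · subst hi1
      by_cases hj1 : j = b'.1
      · subst hj1; rw [setBlock_11]
      · by_cases hj2 : j = b'.2
        · subst hj2; rw [setBlock_12 _ b b' hb']; omega
        · rw [setBlock_off _ b b' _ _ j (fun hc => hc.2.elim hj1 hj2)]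
          exact (h _ j (fun hc => hc.2.elim hj1 hj2)).symm
    · by_cases hi2 : i = b.2
      · subst hi2
        by_cases hj1 : j = b'.1
        · subst hj1; rw [setBlock_21 _ b b' hb]; omega
        · by_cases hj2 : j = b'.2
          · subst hj2; rw [setBlock_22 _ b b' hb hb']; omega
          · rw [setBlock_off _ b b' _ _ j (fun hc => hc.2.elim hj1 hj2)]
            exact (h _ j (fun hc => hc.2.elim hj1 hj2)).symm
      · rw [setBlock_off _ b b' _ i j (fun hc => hc.1.elim hi1 hi2)]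
        exact (h i j (fun hc => hc.1.elim hi1 hi2)).symm
  · unfold lo; omega
  · unfold hi; omega

/-- the number of tables agreeing with `X` off the block -/
theorem card_cls_RX (X : Tab r c) (b : ι × ι) (b' : κ × κ) (hb : b.1 ≠ b.2) (hb' : b'.1 ≠ b'.2) :
    (cls (RX b b') X).card = (Finset.Icc (lo X.1 b b') (hi X.1 b b')).card := by
  refine Finset.card_bij (fun Y _ => Y.1 b.1 b'.1) ?_ ?_ ?_
  · intro Y hY
    have h := eq_setBlock_of_RX X Y b b' hb hb' (mem_cls.1 hY)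
    exact Finset.mem_Icc.2 h.2
  · intro Y hY Z hZ hYZ
    have h1 := (eq_setBlock_of_RX X Y b b' hb hb' (mem_cls.1 hY)).1
    have h2 := (eq_setBlock_of_RX X Z b b' hb hb' (mem_cls.1 hZ)).1
    apply Subtype.ext
    have hYZ' : Y.1 b.1 b'.1 = Z.1 b.1 b'.1 := hYZ
    rw [h1, h2, hYZ']
  · intro k hk
    have hk' := Finset.mem_Icc.1 hk
    refine ⟨refill X b b' hb hb' k hk'.1 hk'.2, mem_cls.2 ?_, setBlock_11 _ _ _ _⟩
    intro i j hij
    exact (setBlock_off X.1 b b' k i j hij).symm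

end P328S
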