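import Vale.Agent.Lib.P328.RC.Defs

/-!
# P328: the `2 × 2` heat-bath sampler as a randomized procedure (`PMF`)
-/

namespace P328S

open P328RC Finset

variable {ι κ : Type*}

/-- smallest feasible value of the entry `(b.1, b'.1)` when the `2 × 2` block with rows `b` and
columns `b'` is refilled with the same block margins -/
def lo (X : ι → κ → ℕ) (b : ι × ι) (b' : κ × κ) : ℕ := X b.1 b'.1 - X b.2 b'.2

/-- largest feasible value of the entry `(b.1, b'.1)` -/
def hi (X : ι → κ → ℕ) (b : ι × ι) (b' : κ × κ) : ℕ :=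
  min (X b.1 b'.1 + X b.1 b'.2) (X b.1 b'.1 + X b.2 b'.1)

theorem lo_le_hi (X : ι → κ → ℕ) (b : ι × ι) (b' : κ × κ) : lo X b b' ≤ hi X b b' := by
  unfold lo hi
  omega

variable [DecidableEq ι] [DecidableEq κ]

/-- refill the block: the entry `(b.1, b'.1)` becomes `k`, the other three entries of the block are
forced by the block margins, all other entries are kept -/
def setBlock (X : ι → κ → ℕ) (b : ι × ι) (b' : κ × κ) (k : ℕ) : ι → κ → ℕ := fun i j =>
  if i = b.1 ∧ j = b'.1 then k
  else if i = b.1 ∧ j = b'.2 then X b.1 b'.1 + X b.1 b'.2 - k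
  else if i = b.2 ∧ j = b'.1 then X b.1 b'.1 + X b.2 b'.1 - k
  else if i = b.2 ∧ j = b'.2 then X b.2 b'.2 + k - X b.1 b'.1
  else X i j

variable [Fintype ι] [Fintype κ] [LinearOrder ι] [LinearOrder κ]

/-- one step of the sampler: draw a pair of rows `b`, a pair of columns `b'` and an integer `k` in
the interval `[lo, hi]`, all uniformly, and refill the block -/
noncomputable def stepLaw (hι : (pr ι).Nonempty) (hκ : (pr κ).Nonempty) (X : ι → κ → ℕ) :
    PMF (ι → κ → ℕ) :=
  (PMF.uniformOfFinset (pr ι) hι).bind fun b =>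
    (PMF.uniformOfFinset (pr κ) hκ).bind fun b' =>
      (PMF.uniformOfFinset (Finset.Icc (lo X b b') (hi X b b'))
        (Finset.nonempty_Icc.2 (lo_le_hi X b b'))).map (setBlock X b b')

/-- the law of the output of the sampler after `t` steps from the table `X0` -/
noncomputable def law (hι : (pr ι).Nonempty) (hκ : (pr κ).Nonempty) (X0 : ι → κ → ℕ) :
    ℕ → PMF (ι → κ → ℕ)
  | 0 => PMF.pure X0
  | t + 1 => (law hι hκ X0 t).bind (stepLaw hι hκ)

open Classical in
/-- one step of the sampler, for all sizes: if there are fewer than two rows or fewer than two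
columns nothing is done -/
noncomputable def step (X : ι → κ → ℕ) : PMF (ι → κ → ℕ) :=
  if h : (pr ι).Nonempty ∧ (pr κ).Nonempty then stepLaw h.1 h.2 X else PMF.pure X

/-- the law of the output of the sampler: `t` steps from the table `X0` -/
noncomputable def sampler (X0 : ι → κ → ℕ) : ℕ → PMF (ι → κ → ℕ)
  | 0 => PMF.pure X0
  | t + 1 => (sampler X0 t).bind step

end P328S
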