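import Vale.Agent.Lib.P328.Sampler.Block
import Vale.Agent.Lib.P328.RC.HbMat

/-!
# P328 sampler: the output law after `t` steps is the `t`-th power of the heat-bath matrix
-/

namespace P328S

open P335 P328RC Finset

/-- `toReal` of a bind over a finite type -/
theorem toReal_bind {α β : Type*} [Fintype α] (p : PMF α) (f : α → PMF β) (z : β) :
    ((p.bind f) z).toReal = ∑ a, (p a).toReal * ((f a) z).toReal := by
  rw [PMF.bind_apply, tsum_fintype, ENNReal.toReal_sum]
  · exact Finset.sum_congr rfl fun a _ => ENNReal.toReal_mul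
  · intro a _
    exact ENNReal.mul_ne_top (PMF.apply_ne_top _ _) (PMF.apply_ne_top _ _)

theorem toReal_uniform {α : Type*} [DecidableEq α] {s : Finset α} (hs : s.Nonempty) (a : α) :
    ((PMF.uniformOfFinset s hs) a).toReal = if a ∈ s then 1 / (s.card : ℝ) else 0 := by
  rw [PMF.uniformOfFinset_apply]
  split_ifs
  · rw [ENNReal.toReal_inv, ENNReal.toReal_natCast, one_div]
  · rfl

theorem sum_ite_mem_mul {α : Type*} [Fintype α] [DecidableEq α] (s : Finset α) (a : ℝ)
    (g : α → ℝ) : ∑ b, (if b ∈ s then a else 0) * g b = a * ∑ b ∈ s, g b := by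
  simp only [ite_mul, zero_mul]
  rw [Finset.sum_ite_mem, Finset.univ_inter, Finset.mul_sum]

variable {ι κ : Type*} [DecidableEq ι] [DecidableEq κ]

open Classical in
/-- the law of the refilled table -/
theorem refill_law (X : ι → κ → ℕ) (b : ι × ι) (b' : κ × κ) (Z : ι → κ → ℕ) :
    ((PMF.uniformOfFinset (Finset.Icc (lo X b b') (hi X b b'))
        (Finset.nonempty_Icc.2 (lo_le_hi X b b'))).map (setBlock X b b')) Z
      = if Z = setBlock X b b' (Z b.1 b'.1) ∧ Z b.1 b'.1 ∈ Finset.Icc (lo X b b') (hi X b b')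
        then ((Finset.Icc (lo X b b') (hi X b b')).card : ENNReal)⁻¹ else 0 := by
  rw [PMF.map_apply, tsum_eq_single (Z b.1 b'.1)]
  · rw [PMF.uniformOfFinset_apply]
    by_cases h1 : Z = setBlock X b b' (Z b.1 b'.1)
    · by_cases h2 : Z b.1 b'.1 ∈ Finset.Icc (lo X b b') (hi X b b')
      · rw [if_pos h1, if_pos h2, if_pos ⟨h1, h2⟩]
      · rw [if_pos h1, if_neg h2, if_neg (fun hc => h2 hc.2)]
    · rw [if_neg h1, if_neg (fun hc => h1 hc.1)]
  · intro k hk
    rw [if_neg]
    intro hc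
    apply hk
    have := congrFun (congrFun hc b.1) b'.1
    rw [setBlock_11] at this
    exact this.symm

variable [Fintype ι] [Fintype κ] {r : ι → ℕ} {c : κ → ℕ}

open Classical in
theorem refill_law_toReal (X Y : Tab r c) (b : ι × ι) (b' : κ × κ) (hb : b.1 ≠ b.2)
    (hb' : b'.1 ≠ b'.2) :
    (((PMF.uniformOfFinset (Finset.Icc (lo X.1 b b') (hi X.1 b b'))
        (Finset.nonempty_Icc.2 (lo_le_hi X.1 b b'))).map (setBlock X.1 b b')) Y.1).toReal
      = if RX b b' X Y then 1 / ((cls (RX b b') X).card : ℝ) else 0 := by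
  rw [refill_law]
  by_cases h : RX b b' X Y
  · have h1 := eq_setBlock_of_RX X Y b b' hb hb' h
    rw [if_pos h, if_pos ⟨h1.1, Finset.mem_Icc.2 h1.2⟩, ENNReal.toReal_inv, ENNReal.toReal_natCast,
      card_cls_RX X b b' hb hb', one_div]
  · rw [if_neg h, if_neg, ENNReal.toReal_zero]
    intro hc
    apply h
    intro i j hij
    rw [hc.1, setBlock_off X.1 b b' _ i j hij]

variable [LinearOrder ι] [LinearOrder κ]

/-- one step of the sampler has the transition probabilities of the heat-bath matrix -/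
theorem stepLaw_toReal (hι : (pr ι).Nonempty) (hκ : (pr κ).Nonempty) (X Y : Tab r c) :
    ((stepLaw hι hκ X.1) Y.1).toReal = hbMat r c X Y := by
  classical
  unfold stepLaw hbMat
  rw [toReal_bind]
  simp only [toReal_bind, toReal_uniform]
  rw [sum_ite_mem_mul]
  simp only [sum_ite_mem_mul]
  rw [← Finset.mul_sum]
  have hS : ∑ b ∈ pr ι, ∑ b' ∈ pr κ,
      (((PMF.uniformOfFinset (Finset.Icc (lo X.1 b b') (hi X.1 b b'))
        (Finset.nonempty_Icc.2 (lo_le_hi X.1 b b'))).map (setBlock X.1 b b')) Y.1).toReal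
      = ∑ b ∈ pr ι, ∑ b' ∈ pr κ,
        (if RX b b' X Y then 1 / ((cls (RX b b') X).card : ℝ) else 0) := by
    refine Finset.sum_congr rfl fun b hb => Finset.sum_congr rfl fun b' hb' => ?_
    exact refill_law_toReal X Y b b' (ne_of_lt (mem_pr.1 hb)) (ne_of_lt (mem_pr.1 hb'))
  rw [hS]
  ring

/-- one step of the sampler keeps the margins -/
theorem stepLaw_support (hι : (pr ι).Nonempty) (hκ : (pr κ).Nonempty) (X : Tab r c)
    (Z : ι → κ → ℕ) (hZ : Z ∈ (stepLaw hι hκ X.1).support) : ∃ Y : Tab r c, Y.1 = Z := by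
  unfold stepLaw at hZ
  rw [PMF.mem_support_bind_iff] at hZ
  obtain ⟨b, hb, hZ⟩ := hZ
  rw [PMF.mem_support_bind_iff] at hZ
  obtain ⟨b', hb', hZ⟩ := hZ
  rw [PMF.mem_support_map_iff] at hZ
  obtain ⟨k, hk, hZ⟩ := hZ
  rw [PMF.mem_support_uniformOfFinset_iff] at hb hb' hk
  have hk' := Finset.mem_Icc.1 hk
  exact ⟨refill X b b' (ne_of_lt (mem_pr.1 hb)) (ne_of_lt (mem_pr.1 hb')) k hk'.1 hk'.2, hZ⟩

/-- the sampler only outputs tables with the right margins -/
theorem law_support (hι : (pr ι).Nonempty) (hκ : (pr κ).Nonempty) (X0 : Tab r c) (t : ℕ)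
    (Z : ι → κ → ℕ) (hZ : Z ∈ (law hι hκ X0.1 t).support) : ∃ Y : Tab r c, Y.1 = Z := by
  induction t generalizing Z with
  | zero =>
    rw [law, PMF.mem_support_pure_iff] at hZ
    exact ⟨X0, hZ.symm⟩
  | succ t ih =>
    rw [law, PMF.mem_support_bind_iff] at hZ
    obtain ⟨W, hW, hZ⟩ := hZ
    obtain ⟨X, rfl⟩ := ih W hW
    exact stepLaw_support hι hκ X Z hZ

open Classical in
/-- the output law after `t` steps is the row `X0` of the `t`-th power of the heat-bath matrix -/
theorem law_toReal (hι : (pr ι).Nonempty) (hκ : (pr κ).Nonempty) (X0 : Tab r c) (t : ℕ)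
    (Y : Tab r c) : ((law hι hκ X0.1 t) Y.1).toReal = (hbMat r c ^ t) X0 Y := by
  induction t generalizing Y with
  | zero =>
    rw [law, PMF.pure_apply, pow_zero, Matrix.one_apply]
    by_cases h : X0 = Y
    · rw [if_pos h, if_pos (by rw [h]), ENNReal.toReal_one]
    · rw [if_neg h, if_neg (fun hc => h (Subtype.ext hc.symm)), ENNReal.toReal_zero]
  | succ t ih =>
    rw [law, PMF.bind_apply, pow_succ, Matrix.mul_apply]
    have hinj : Function.Injective (fun X : Tab r c => X.1) := fun A B h => Subtype.ext h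
    rw [← hinj.tsum_eq (f := fun W => (law hι hκ X0.1 t) W * (stepLaw hι hκ W) Y.1), tsum_fintype,
      ENNReal.toReal_sum]
    · refine Finset.sum_congr rfl fun X _ => ?_
      rw [ENNReal.toReal_mul, ih X, stepLaw_toReal]
    · intro X _
      exact ENNReal.mul_ne_top (PMF.apply_ne_top _ _) (PMF.apply_ne_top _ _)
    · intro W hW
      have h1 : (law hι hκ X0.1 t) W ≠ 0 := fun hc => hW (by simp [hc])
      obtain ⟨X, hX⟩ := law_support hι hκ X0 t W ((PMF.mem_support_iff _ _).2 h1)
      exact ⟨X, hX⟩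

theorem sampler_eq_law (hι : (pr ι).Nonempty) (hκ : (pr κ).Nonempty) (X0 : ι → κ → ℕ) (t : ℕ) :
    sampler X0 t = law hι hκ X0 t := by
  induction t with
  | zero => rfl
  | succ t ih =>
    rw [sampler, law, ih]
    congr 1
    funext X
    unfold step
    rw [dif_pos ⟨hι, hκ⟩]

theorem sampler_eq_pure (h : ¬((pr ι).Nonempty ∧ (pr κ).Nonempty)) (X0 : ι → κ → ℕ) (t : ℕ) :
    sampler X0 t = PMF.pure X0 := by
  induction t with
  | zero => rfl
  | succ t ih =>
    rw [sampler, ih, PMF.pure_bind]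
    unfold step
    rw [dif_neg h]

end P328S
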